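import Vale.Agent.P254.SP.H332.Ent
import Vale.Agent.P254.SP.IfaceA

/-!
# P254, line (SP_0), row ENT2: `StmtEnt2`
-/

open MeasureTheory Matrix
open scoped Topology

noncomputable section

namespace Vale.Agent.P254.SP332

open Vale.Agent.P227.M Vale.Agent.P254.S Vale.Agent.P254.S332 Vale.Agent.P254.SP

variable {n : ℕ} {φ V : E n → ℝ} {a b M κ : ℝ} {U : E n → Matrix (Fin n) (Fin n) ℝ}
  {s : E n → Fin n → ℝ} {P : F1}

/-- the frame of `G` is a spectral frame of `D²φ` -/
lemma Fr.spec (h : Fr P φ U s) : Spec (hess φ) U (fun z k => P.L (s z k)) := by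
  refine ⟨h.orth, fun z => ?_⟩
  rw [h.dec z]
  rfl

/-- `fc` in the variable `s` is `fc` in the variable `m = L s` of `F ∘ g` -/
lemma fc_L (P : F1) (U : E n → Matrix (Fin n) (Fin n) ℝ) (s : E n → Fin n → ℝ) (F : ℝ → ℝ)
    (z : E n) : fc U s F z = fc U (fun z k => P.L (s z k)) (fun m => F (P.g m)) z := by
  unfold fc
  simp only [P.g_L]

lemma g_cont (P : F1) : ContinuousOn P.g (Set.Ioi 0) :=
  P.g_concave.continuousOn isOpen_Ioi

lemma t_cont (P : F1) : Continuous P.t :=
  continuous_iff_continuousAt.2 fun x => (P.ht x).continuousAt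

lemma comp_g_cont (P : F1) {F : ℝ → ℝ} (hF : Continuous F) :
    ContinuousOn (fun m => F (P.g m)) (Set.Ioi 0) :=
  hF.comp_continuousOn (g_cont P)

/-- every continuous function of `G` is continuous and bounded in `z` -/
theorem fc_gr_s (h : BP φ V a b M κ) (hF : Fr P φ U s) {F : ℝ → ℝ} (hc : Continuous F)
    (i j : Fin n) : Gr (fun z => fc U s F z i j) := by
  have e : (fun z => fc U s F z i j) =
      fun z => fc U (fun z k => P.L (s z k)) (fun m => F (P.g m)) z i j := by
    funext z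
    rw [fc_L P]
  rw [e]
  exact fc_gr h (Fr.spec hF) (comp_g_cont P hc) i j

/-- the eigenvalues of `G` lie in `[g a, g b]` -/
theorem s_Icc (h : BP φ V a b M κ) (hF : Fr P φ U s) (z : E n) (k : Fin n) :
    s z k ∈ Set.Icc (P.g a) (P.g b) := by
  have h1 := eig_Icc h (Fr.spec hF) z k
  have hL : StrictMono P.L := by
    refine strictMono_of_deriv_pos fun x => ?_
    rw [(P.hL x).deriv]
    exact P.L'_pos x
  have hb : 0 < b := h.a_pos.trans_le (h1.1.trans h1.2)
  constructor
  · rw [← hL.le_iff_le, P.L_g a h.a_pos]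
    exact h1.1
  · rw [← hL.le_iff_le, P.L_g b hb]
    exact h1.2

/-- sums over the spectrum of `G` are continuous and bounded in `z` -/
theorem gr_tr_s (h : BP φ V a b M κ) (hF : Fr P φ U s) {F : ℝ → ℝ} (hc : Continuous F) :
    Gr (fun z => ∑ k, F (s z k)) := by
  have e : (fun z => ∑ k, F (s z k)) = fun z => ∑ k, F (P.g (P.L (s z k))) := by
    funext z
    simp only [P.g_L]
  rw [e]
  exact gr_tr h (Fr.spec hF) (comp_g_cont P hc)

/-- **ENT2** -/
theorem stmtEnt2 : StmtEnt2 := by
  intro P n φ V a b M κ h U s hF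
  have h1 := sp_ent h (Fr.spec hF) (g := P.g) (τ := P.t) (g_cont P) (comp_g_cont P (t_cont P))
    (fun x hx => by
      have := P.log_L (P.g x)
      rw [P.L_g x hx] at this
      linarith)
  rw [h1]
  simp only [P.g_L]
  have e : (fun z => ∑ i, (2 * P.t (s z i) - s z i ^ 2)) =
      fun z => 2 * (∑ i, P.t (s z i)) + (-1) * ∑ i, s z i ^ 2 := by
    funext z
    rw [Finset.sum_sub_distrib, ← Finset.mul_sum]
    ring
  rw [e, Ex_add ((gr_tr_s h hF (t_cont P)).const_mul _)
    ((gr_tr_s h hF (continuous_pow 2)).const_mul _), Ex_const_mul, Ex_const_mul]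
  ring

end Vale.Agent.P254.SP332
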