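import Vale.Agent.P254.S.H332.Fc
import Vale.Agent.P254.S.H979.Push

/-!
# P254, line (SP_0), row SP-ENT: the entropy in terms of `G = g(D²φ)`

If `2 log x = 2 τ(g x) - g(x)² - log 2π` on `(0,∞)` (the model identity, `τ = -log(1-Φ)`,
`g = (τ')⁻¹`) then `2 h(μ) = n + E tr (2 τ(G) - G²)`.
-/

open MeasureTheory Matrix
open scoped Topology

noncomputable section

namespace Vale.Agent.P254.SP332

open Vale.Agent.P227.M Vale.Agent.P254.S Vale.Agent.P254.S332

variable {n : ℕ} {φ V : E n → ℝ} {a b M κ : ℝ} {U : E n → Matrix (Fin n) (Fin n) ℝ}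
  {m : E n → Fin n → ℝ}

/-- the determinant of `D²φ` is the product of the `m z k` -/
lemma det_spec {W : E n → Matrix (Fin n) (Fin n) ℝ} (hS : Spec W U m) (z : E n) :
    (W z).det = ∏ k, m z k := by
  rw [hS.dec z, Matrix.det_mul, Matrix.det_mul, Matrix.det_diagonal, Matrix.det_transpose]
  have h1 := congrArg Matrix.det (hS.orth z)
  rw [Matrix.det_mul, Matrix.det_transpose, Matrix.det_one] at h1
  calc ((U z).det * ∏ k, m z k) * (U z).det = ((U z).det * (U z).det) * ∏ k, m z k := by ring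
    _ = _ := by rw [h1, one_mul]

/-- the trace of `F(D²φ)` -/
lemma trace_fc {W : E n → Matrix (Fin n) (Fin n) ℝ} (hS : Spec W U m) (F : ℝ → ℝ) (z : E n) :
    ∑ i, fc U m F z i i = ∑ k, F (m z k) := by
  simp only [fc_apply]
  rw [Finset.sum_comm]
  refine Finset.sum_congr rfl fun k _ => ?_
  have h1 := congrFun (congrFun (Spec.orth' hS z) k) k
  rw [Matrix.mul_apply, Matrix.one_apply_eq] at h1
  calc ∑ i, U z i k * F (m z k) * U z i k
      = F (m z k) * ∑ i, (U z).transpose k i * U z i k := by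
        rw [Finset.mul_sum]
        refine Finset.sum_congr rfl fun i _ => ?_
        rw [Matrix.transpose_apply]; ring
    _ = _ := by rw [h1, mul_one]

/-- `z ↦ tr F(D²φ)` has polynomial growth (is continuous and bounded) -/
lemma gr_tr (h : BP φ V a b M κ) (hS : Spec (hess φ) U m) {F : ℝ → ℝ}
    (hF : ContinuousOn F (Set.Ioi 0)) : Gr (fun z => ∑ k, F (m z k)) := by
  have e : (fun z => ∑ k, F (m z k)) = fun z => ∑ i, fc U m F z i i := by
    funext z
    rw [trace_fc hS]
  rw [e]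
  exact Gr.sum _ fun i _ => fc_gr h hS hF i i

/-- **SP-ENT** -/
theorem sp_ent (h : BP φ V a b M κ) (hS : Spec (hess φ) U m)
    {g τ : ℝ → ℝ} (hg : ContinuousOn g (Set.Ioi 0)) (hτ : ContinuousOn (fun x => τ (g x)) (Set.Ioi 0))
    (hid : ∀ x, 0 < x → 2 * Real.log x = 2 * τ (g x) - g x ^ 2 - Real.log (2 * Real.pi)) :
    2 * entV V = n + (2 * Ex Q (fun z => ∑ k, τ (g (m z k))) -
      Ex Q (fun z => ∑ k, g (m z k) ^ 2)) := by
  rw [ent_of_push H979.stmtPush h]
  have e1 : (fun z => Real.log (hess φ z).det) = fun z => (∑ k, τ (g (m z k)) +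
      (-(1 / 2)) * ∑ k, g (m z k) ^ 2) + (-(n / 2 * Real.log (2 * Real.pi))) := by
    funext z
    rw [det_spec hS, Real.log_prod (fun k _ => (eig_pos h hS z k).ne')]
    have e2 : ∀ k, Real.log (m z k) = τ (g (m z k)) + (-(1 / 2)) * g (m z k) ^ 2 +
        (-(1 / 2 * Real.log (2 * Real.pi))) := by
      intro k
      have := hid _ (eig_pos h hS z k)
      linarith
    simp only [e2]
    rw [Finset.sum_add_distrib, Finset.sum_add_distrib, ← Finset.mul_sum, Finset.sum_const,
      Finset.card_univ, Fintype.card_fin, nsmul_eq_mul]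
    ring
  have hg1 : Gr (fun z => ∑ k, τ (g (m z k))) := gr_tr h hS hτ
  have hg2 : Gr (fun z => ∑ k, g (m z k) ^ 2) := gr_tr h hS (F := fun x => g x ^ 2) (hg.pow 2)
  rw [e1, Ex_add (hg1.add (hg2.const_mul _)) (Gr.const _), Ex_add hg1 (hg2.const_mul _),
    Ex_const_mul, Ex_const, Real.log_mul (by positivity) (Real.exp_pos 1).ne', Real.log_exp]
  ring

end Vale.Agent.P254.SP332
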