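import Vale.Agent.P254.SP.H332.Ent2
import Vale.Agent.P254.S.H151.Spec

/-!
# P254, line (SP_0): reduction of the sharp inequality to column variances

`W` orthogonal with columns `w_p`, `c_p > 0` free:
`log det Cov ≤ Σ_p (Var ⟨w_p, ∇φ⟩ / c_p - 1 + log c_p)`, and the resulting sufficient condition for
`2 n + log det Cov ≤ 2 h`.
-/

open MeasureTheory Matrix
open scoped Topology

noncomputable section

namespace Vale.Agent.P254.SP332

open Vale.Agent.P227.M Vale.Agent.P254.S Vale.Agent.P254.S332 Vale.Agent.P254.SP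

variable {n : ℕ} {φ V : E n → ℝ} {a b M κ : ℝ}

/-- the variance of `⟨v, ∇φ⟩` -/
def varc (φ : E n → ℝ) (v : Fin n → ℝ) : ℝ :=
  Ex Q (fun z => lc φ v z ^ 2) - (Ex Q (lc φ v)) ^ 2

lemma varc_eq (h : BP φ V a b M κ) (v : Fin n → ℝ) : v ⬝ᵥ (covV V *ᵥ v) = varc φ v :=
  cov_quad H979.stmtPush h v

/-- Hadamard's inequality for the covariance, with free multipliers -/
theorem log_det_cov_le (h : BP φ V a b M κ) {W : Matrix (Fin n) (Fin n) ℝ} (hW : Wᵀ * W = 1)
    {c : Fin n → ℝ} (hc : ∀ p, 0 < c p) :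
    Real.log (covV V).det ≤ ∑ p, (varc φ (fun k => W k p) / c p - 1 + Real.log (c p)) := by
  have h1 := S151.log_det_le (cov_posDef H979.stmtPush h) hW (c := fun p => (c p)⁻¹)
    (fun p => inv_pos.2 (hc p))
  refine h1.trans (le_of_eq (Finset.sum_congr rfl fun p _ => ?_))
  rw [S151.quad_col, varc_eq h, Real.log_inv]
  ring

/-- **Reduction.** If `Var ⟨w_p, ∇φ⟩ ≤ B_p` for every column and
`Σ_p (B_p / c_p - 1 + log c_p) ≤ E tr (2 t(G) - G²) - n`, then `2 n + log det Cov ≤ 2 h`. -/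
theorem fin_of_columns {P : F1} {U : E n → Matrix (Fin n) (Fin n) ℝ} {s : E n → Fin n → ℝ}
    (h : BP φ V a b M κ) (hF : Fr P φ U s) {W : Matrix (Fin n) (Fin n) ℝ} (hW : Wᵀ * W = 1)
    {c B : Fin n → ℝ} (hc : ∀ p, 0 < c p) (hB : ∀ p, varc φ (fun k => W k p) ≤ B p)
    (hsum : ∑ p, (B p / c p - 1 + Real.log (c p)) ≤
      Ex Q (fun z => ∑ i, (2 * P.t (s z i) - s z i ^ 2)) - n) :
    2 * (n : ℝ) + Real.log (covV V).det ≤ 2 * entV V := by
  have h1 := log_det_cov_le h hW hc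
  have h2 := stmtEnt2 P n φ V a b M κ h U s hF
  have h3 : ∑ p, (varc φ (fun k => W k p) / c p - 1 + Real.log (c p)) ≤
      ∑ p, (B p / c p - 1 + Real.log (c p)) :=
    Finset.sum_le_sum fun p _ => by
      have := div_le_div_of_nonneg_right (hB p) (hc p).le
      linarith
  rw [h2]
  linarith

end Vale.Agent.P254.SP332
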